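import Vale.Agent.P237.Main1
import Vale.Agent.P237.TNum
import Vale.Agent.P237.TNRaw
import Vale.Agent.P237.TNInt
import Vale.Agent.P237.TNRun
import Vale.Agent.P237.TNEok
import Vale.Agent.P237.TNEokB
import Vale.Agent.P237.TNTab
import Vale.Agent.P237.TNCellA
import Vale.Agent.P237.TNCellB

namespace Vale.Agent.Results.P237.Petty

open Vale.Agent.P237

theorem result (n : ℕ) (hn : 4 ≤ n) (K : Set (E n)) (hK : IsBody K) :
    kappa (n - 1) ^ n * kappa n ^ (2 - (n : ℤ)) * vol K ^ (n - 1) ≤ vol (projBody K) ∧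
      (vol (projBody K) = kappa (n - 1) ^ n * kappa n ^ (2 - (n : ℤ)) * vol K ^ (n - 1) ↔
        IsEllipsoid K) :=
  main_of_num (num (nTree (nCellA (nRun nRaw nInt) nEok)) nTab (nCellB (nRun nRaw nInt) nEokB)
    (nBig nEokB)) n hn K hK

end Vale.Agent.Results.P237.Petty
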